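import Mathlib

set_option autoImplicit false

/-!
# Row 211, module (F): real-algebra core of the explicit cylinder cover of the tetrahedron

Coordinates `(x, y, t)` with `z = √2 t`; the tetrahedron is `{|x| ≤ 1 - t, |y| ≤ t}`.
-/

namespace Crest.Agent.Helper20

noncomputable section

/-- tilt parameter -/
def lam : ℝ := 1 / 20

/-- the profile `g(τ) = (λ/2)(1-τ²)` -/
def gfun (τ : ℝ) : ℝ := lam / 2 * (1 - τ ^ 2)

/-- ideal truncation height -/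
def rhoT (τ : ℝ) : ℝ := 1 / 2 + lam ^ 2 / 4 * (τ ^ 2 + τ ^ 4) + 3 / 10 * lam ^ 4

theorem quad_aux (D : ℝ) (hD0 : 0 ≤ D) (hD1 : D ≤ 1) :
    0 ≤ (1 / 20 : ℝ) ^ 2 / 4 * D ^ 2 + 2 * (3 / 10) * (1 / 20 : ℝ) ^ 4 - (1 / 20 : ℝ) ^ 3 / 4 * (3 * D)
        - (1 / 20 : ℝ) ^ 4 / 16 * (3 * D ^ 2) := by
  nlinarith [sq_nonneg (D - 3 / 40)]

/-- the polynomial inequality behind the cover, in the variables `a = τ²`, `b = σ²`, `e = στ`. -/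
theorem poly_aux (a b e : ℝ) (ha0 : 0 ≤ a) (ha1 : a ≤ 1) (hb0 : 0 ≤ b) (hb1 : b ≤ 1)
    (he : |e| ≤ 1) :
    lam ^ 2 / 4 * (b + a + 2 * b * a) ≤
      (lam ^ 2 / 4 * (a + a ^ 2) + 3 / 10 * lam ^ 4) *
          (1 + lam ^ 2 / 4 * (1 - b * a) - lam * (e + lam / 4 * (a - b))) +
        (lam ^ 2 / 4 * (b + b ^ 2) + 3 / 10 * lam ^ 4) *
          (1 + lam ^ 2 / 4 * (1 - b * a) + lam * (e + lam / 4 * (a - b))) := by
  have hlam : lam = 1 / 20 := rfl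
  have hm0 : 0 ≤ 1 + a + b := by linarith
  have hm3 : 1 + a + b ≤ 3 := by linarith
  have hab1 : b * a ≤ 1 := mul_le_one₀ hb1 ha0 ha1
  have hΔ1 : |a - b| ≤ 1 := by rw [abs_le]; constructor <;> linarith
  have hme : |(1 + a + b) * e| ≤ 3 := by
    rw [abs_mul, abs_of_nonneg hm0]
    calc (1 + a + b) * |e| ≤ 3 * 1 := mul_le_mul hm3 he (abs_nonneg _) (by norm_num)
      _ = 3 := by norm_num
  have hterm : (a - b) * ((1 + a + b) * e) ≤ 3 * |a - b| := by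
    have h1 : (a - b) * ((1 + a + b) * e) ≤ |(a - b) * ((1 + a + b) * e)| := le_abs_self _
    rw [abs_mul] at h1
    have h2 : |a - b| * |(1 + a + b) * e| ≤ |a - b| * 3 :=
      mul_le_mul_of_nonneg_left hme (abs_nonneg _)
    linarith
  have hΔsq : (a - b) ^ 2 = |a - b| ^ 2 := (sq_abs (a - b)).symm
  have hD0 : 0 ≤ |a - b| := abs_nonneg _
  have hmΔ : (1 + a + b) * (a - b) ^ 2 ≤ 3 * (a - b) ^ 2 :=
    mul_le_mul_of_nonneg_right hm3 (sq_nonneg _)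
  have hp1 : 0 ≤ lam ^ 2 / 4 * (a + a ^ 2) + 3 / 10 * lam ^ 4 +
        (lam ^ 2 / 4 * (b + b ^ 2) + 3 / 10 * lam ^ 4) := by
    have h1 : 0 ≤ a + a ^ 2 := by positivity
    have h2 : 0 ≤ b + b ^ 2 := by positivity
    have h3 : 0 ≤ lam ^ 2 / 4 := by rw [hlam]; norm_num
    have h4 : 0 ≤ 3 / 10 * lam ^ 4 := by rw [hlam]; norm_num
    have := mul_nonneg h3 h1
    have := mul_nonneg h3 h2
    linarith
  have hp2 : 0 ≤ lam ^ 2 / 4 * (1 - b * a) := by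
    have h3 : 0 ≤ lam ^ 2 / 4 := by rw [hlam]; norm_num
    exact mul_nonneg h3 (by linarith)
  have hpos := mul_nonneg hp1 hp2
  have hF : (lam ^ 2 / 4 * (a + a ^ 2) + 3 / 10 * lam ^ 4) *
        (1 + lam ^ 2 / 4 * (1 - b * a) - lam * (e + lam / 4 * (a - b))) +
        (lam ^ 2 / 4 * (b + b ^ 2) + 3 / 10 * lam ^ 4) *
        (1 + lam ^ 2 / 4 * (1 - b * a) + lam * (e + lam / 4 * (a - b))) -
        lam ^ 2 / 4 * (b + a + 2 * b * a) =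
        lam ^ 2 / 4 * (a - b) ^ 2 + 2 * (3 / 10) * lam ^ 4 +
        (lam ^ 2 / 4 * (a + a ^ 2) + 3 / 10 * lam ^ 4 +
        (lam ^ 2 / 4 * (b + b ^ 2) + 3 / 10 * lam ^ 4)) * (lam ^ 2 / 4 * (1 - b * a))
        - lam ^ 3 / 4 * ((a - b) * ((1 + a + b) * e)) - lam ^ 4 / 16 * ((1 + a + b) * (a - b) ^ 2) := by
    ring
  have hquad := quad_aux |a - b| hD0 hΔ1
  rw [← hlam] at hquad
  have hl3 : 0 ≤ lam ^ 3 / 4 := by rw [hlam]; norm_num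
  have hl4 : 0 ≤ lam ^ 4 / 16 := by rw [hlam]; norm_num
  have t1 := mul_le_mul_of_nonneg_left hterm hl3
  have t2 := mul_le_mul_of_nonneg_left hmΔ hl4
  rw [hΔsq] at t2
  rw [hΔsq] at hF
  linarith

/-- The key contradiction: both truncations cannot fail. -/
theorem key_ineq (σ τ A B x y : ℝ) (hσ : |σ| ≤ 1) (hτ : |τ| ≤ 1)
    (hy : y = τ * A + lam / 2 * (1 + τ ^ 2) * x)
    (hx : x = σ * B - lam / 2 * (1 + σ ^ 2) * y)
    (hAB : A + B - 1 = lam * (σ * y - τ * x))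
    (hA : rhoT τ < A) (hB : rhoT σ < B) : False := by
  have hσ2 : σ ^ 2 ≤ 1 := by
    have := abs_le.mp hσ; nlinarith
  have hτ2 : τ ^ 2 ≤ 1 := by
    have := abs_le.mp hτ; nlinarith
  have hσ0 : 0 ≤ σ ^ 2 := sq_nonneg σ
  have hτ0 : 0 ≤ τ ^ 2 := sq_nonneg τ
  have hid : (A - 1 / 2) * ((1 + lam ^ 2 / 4 * (1 - σ ^ 2 * τ ^ 2)) - lam * (σ * τ + lam / 4 * (τ ^ 2 - σ ^ 2)))
      + (B - 1 / 2) * ((1 + lam ^ 2 / 4 * (1 - σ ^ 2 * τ ^ 2)) + lam * (σ * τ + lam / 4 * (τ ^ 2 - σ ^ 2)))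
      = lam ^ 2 / 4 * (σ ^ 2 + τ ^ 2 + 2 * σ ^ 2 * τ ^ 2) := by
    linear_combination (1 + lam / 2 * (1 + τ ^ 2) * (lam / 2 * (1 + σ ^ 2))) * hAB
      + lam * (σ + τ * (lam / 2 * (1 + σ ^ 2))) * hy
      + lam * (σ * (lam / 2 * (1 + τ ^ 2)) - τ) * hx
  have hst : |σ * τ| ≤ 1 := by
    rw [abs_mul]
    calc |σ| * |τ| ≤ 1 * 1 := mul_le_mul hσ hτ (abs_nonneg _) (by norm_num)
      _ = 1 := by norm_num
  have hst' := abs_le.mp hst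
  have hlam : lam = 1 / 20 := rfl
  have hab1 : σ ^ 2 * τ ^ 2 ≤ 1 := mul_le_one₀ hσ2 hτ0 hτ2
  have hW1 : 0 < (1 + lam ^ 2 / 4 * (1 - σ ^ 2 * τ ^ 2)) - lam * (σ * τ + lam / 4 * (τ ^ 2 - σ ^ 2)) := by
    rw [hlam]; nlinarith
  have hW2 : 0 < (1 + lam ^ 2 / 4 * (1 - σ ^ 2 * τ ^ 2)) + lam * (σ * τ + lam / 4 * (τ ^ 2 - σ ^ 2)) := by
    rw [hlam]; nlinarith
  have e1 := mul_lt_mul_of_pos_right (sub_lt_sub_right hA (1 / 2)) hW1
  have e2 := mul_lt_mul_of_pos_right (sub_lt_sub_right hB (1 / 2)) hW2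
  have h2 := poly_aux (τ ^ 2) (σ ^ 2) (σ * τ) hτ0 hτ2 hσ0 hσ2 hst
  have hrτ : rhoT τ - 1 / 2 = lam ^ 2 / 4 * (τ ^ 2 + (τ ^ 2) ^ 2) + 3 / 10 * lam ^ 4 := by
    unfold rhoT; ring
  have hrσ : rhoT σ - 1 / 2 = lam ^ 2 / 4 * (σ ^ 2 + (σ ^ 2) ^ 2) + 3 / 10 * lam ^ 4 := by
    unfold rhoT; ring
  rw [hrτ] at e1
  rw [hrσ] at e2
  linarith


/-! ## The sectors -/

/-- grid points `τ_j = -1 + j h`, `h = 2/N` -/
def tau (N : ℕ) (j : ℕ) : ℝ := -1 + (j : ℝ) * (2 / (N : ℝ))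

theorem tau_zero (N : ℕ) : tau N 0 = -1 := by simp [tau]

theorem tau_N (N : ℕ) (hN : 0 < N) : tau N N = 1 := by
  have : (N : ℝ) ≠ 0 := by positivity
  unfold tau; field_simp; ring

theorem tau_succ (N j : ℕ) : tau N (j + 1) = tau N j + 2 / (N : ℝ) := by
  unfold tau; push_cast; ring

theorem tau_ge (N j : ℕ) : -1 ≤ tau N j := by
  unfold tau
  have : 0 ≤ (j : ℝ) * (2 / (N : ℝ)) := by positivity
  linarith

theorem tau_le (N j : ℕ) (hN : 0 < N) (hj : j ≤ N) : tau N j ≤ 1 := by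
  have hN' : (0 : ℝ) < N := by exact_mod_cast hN
  have hj' : (j : ℝ) ≤ N := by exact_mod_cast hj
  unfold tau
  have : (j : ℝ) * (2 / (N : ℝ)) ≤ (N : ℝ) * (2 / (N : ℝ)) :=
    mul_le_mul_of_nonneg_right hj' (by positivity)
  have h2 : (N : ℝ) * (2 / (N : ℝ)) = 2 := by field_simp
  linarith

theorem discrete_ivt (f : ℕ → ℝ) (N : ℕ) (hN : 0 < N) (h0 : 0 ≤ f 0) (h1 : f N ≤ 0) :
    ∃ j, j < N ∧ 0 ≤ f j ∧ f (j + 1) ≤ 0 := by
  induction N with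
  | zero => exact absurd hN (lt_irrefl 0)
  | succ n ih =>
    by_cases hn : f n ≤ 0
    · rcases Nat.eq_zero_or_pos n with h | h
      · subst h
        exact ⟨0, Nat.zero_lt_one, h0, h1⟩
      · obtain ⟨j, hj, hj1, hj2⟩ := ih h hn
        exact ⟨j, Nat.lt_succ_of_lt hj, hj1, hj2⟩
    · exact ⟨n, Nat.lt_succ_self n, (not_le.mp hn).le, h1⟩

theorem exists_sector (N : ℕ) (hN : 0 < N) (x y t : ℝ) (hy : |y| ≤ t) :
    ∃ j, j < N ∧ ∃ τ ∈ Set.Icc (tau N j) (tau N (j + 1)),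
      0 ≤ y - tau N j * t - gfun (tau N j) * x ∧
      y - tau N (j + 1) * t - gfun (tau N (j + 1)) * x ≤ 0 ∧
      y = τ * t + gfun τ * x := by
  have hy' := abs_le.mp hy
  have hg1 : gfun (-1) = 0 := by unfold gfun; norm_num
  have hg2 : gfun 1 = 0 := by unfold gfun; norm_num
  obtain ⟨j, hj, hj1, hj2⟩ := discrete_ivt (fun j => y - tau N j * t - gfun (tau N j) * x) N hN
    (by simp only [tau_zero, hg1]; linarith) (by simp only [tau_N N hN, hg2]; linarith)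
  refine ⟨j, hj, ?_⟩
  have hle : tau N j ≤ tau N (j + 1) := by
    rw [tau_succ]; have : (0 : ℝ) ≤ 2 / (N : ℝ) := by positivity
    linarith
  have hcont : ContinuousOn (fun τ : ℝ => y - τ * t - gfun τ * x) (Set.Icc (tau N j) (tau N (j + 1))) := by
    unfold gfun; fun_prop
  have hmem : (0 : ℝ) ∈ Set.Icc (y - tau N (j + 1) * t - gfun (tau N (j + 1)) * x)
      (y - tau N j * t - gfun (tau N j) * x) := ⟨hj2, hj1⟩
  obtain ⟨τ, hτ, hτ0⟩ := intermediate_value_Icc' hle hcont hmem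
  refine ⟨τ, hτ, hj1, hj2, ?_⟩
  simp only at hτ0
  linarith

theorem rhoT_step (a τ h : ℝ) (ha : |a| ≤ 1) (hτ : |τ| ≤ 1) (h1 : a ≤ τ) (h2 : τ ≤ a + h) :
    rhoT τ ≤ rhoT a + lam * h / 2 := by
  have ha' := abs_le.mp ha
  have hτ' := abs_le.mp hτ
  have hh : 0 ≤ h := by linarith
  have hd : τ ^ 2 - a ^ 2 ≤ 2 * h := by nlinarith
  have hτ2 : τ ^ 2 ≤ 1 := by nlinarith
  have ha2 : a ^ 2 ≤ 1 := by nlinarith
  have hd4 : τ ^ 4 - a ^ 4 ≤ 4 * h := by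
    have e : τ ^ 4 - a ^ 4 = (τ ^ 2 - a ^ 2) * (τ ^ 2 + a ^ 2) := by ring
    rw [e]
    rcases le_or_gt (τ ^ 2 - a ^ 2) 0 with hneg | hpos
    · have : (τ ^ 2 - a ^ 2) * (τ ^ 2 + a ^ 2) ≤ 0 :=
        mul_nonpos_of_nonpos_of_nonneg hneg (by positivity)
      linarith
    · have : (τ ^ 2 - a ^ 2) * (τ ^ 2 + a ^ 2) ≤ (2 * h) * 2 :=
        mul_le_mul hd (by linarith) (by positivity) (by linarith)
      linarith
  have hlam : lam = 1 / 20 := rfl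
  unfold rhoT
  rw [hlam]
  nlinarith

/-- truncation heights -/
def rho (N : ℕ) (j : ℕ) : ℝ := rhoT (tau N j) + lam * (2 / (N : ℝ))

/-- sector midpoints -/
def tbar (N : ℕ) (j : ℕ) : ℝ := (tau N j + tau N (j + 1)) / 2

/-- membership in the `j`-th lower cylinder, in `(x, y, t)` coordinates -/
def Low (N : ℕ) (j : ℕ) (x y t : ℝ) : Prop :=
  0 ≤ y - tau N j * t - gfun (tau N j) * x ∧
  y - tau N (j + 1) * t - gfun (tau N (j + 1)) * x ≤ 0 ∧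
  t - lam * tbar N j * x ≤ rho N j

theorem trunc_aux (N : ℕ) (hN : 0 < N) (j : ℕ) (hj : j < N) (τ x t : ℝ)
    (hτ : τ ∈ Set.Icc (tau N j) (tau N (j + 1))) (hx : |x| ≤ 1)
    (hA : rho N j < t - lam * tbar N j * x) : rhoT τ < t - lam * τ * x ∧ |τ| ≤ 1 := by
  have hN' : (0 : ℝ) < N := by exact_mod_cast hN
  have hh : (0 : ℝ) < 2 / (N : ℝ) := by positivity
  have h1 := tau_ge N j
  have h2 := tau_le N (j + 1) hN hj
  have hs := tau_succ N j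
  have hτ1 : |τ| ≤ 1 := by rw [abs_le]; exact ⟨by linarith [hτ.1], by linarith [hτ.2]⟩
  have ha1 : |tau N j| ≤ 1 := by rw [abs_le]; exact ⟨h1, by linarith⟩
  have hstep := rhoT_step (tau N j) τ (2 / (N : ℝ)) ha1 hτ1 hτ.1 (by rw [← hs]; exact hτ.2)
  refine ⟨?_, hτ1⟩
  have hx' := abs_le.mp hx
  have hlam : lam = 1 / 20 := rfl
  have hd : |tbar N j - τ| ≤ (2 / (N : ℝ)) / 2 := by
    unfold tbar; rw [abs_le]; constructor <;> linarith [hτ.1, hτ.2]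
  have hprod : |(tbar N j - τ) * x| ≤ (2 / (N : ℝ)) / 2 * 1 := by
    rw [abs_mul]; exact mul_le_mul hd hx (abs_nonneg _) (by positivity)
  have hprod' := abs_le.mp hprod
  have e : t - lam * τ * x = (t - lam * tbar N j * x) + lam * ((tbar N j - τ) * x) := by ring
  rw [e]
  unfold rho at hA
  have hl : (0 : ℝ) < lam := by rw [hlam]; norm_num
  have := mul_le_mul_of_nonneg_left hprod'.1 hl.le
  nlinarith

/-- The covering statement in `(x, y, t)` coordinates. -/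
theorem cover_xyt (N : ℕ) (hN : 0 < N) (x y t : ℝ) (hx : |x| ≤ 1 - t) (hy : |y| ≤ t) :
    (∃ j, j < N ∧ Low N j x y t) ∨ (∃ k, k < N ∧ Low N k (-y) x (1 - t)) := by
  have ht0 : 0 ≤ t := le_trans (abs_nonneg _) hy
  have ht1 : t ≤ 1 := by have := abs_nonneg x; linarith
  have hx1 : |x| ≤ 1 := by linarith
  have hy1 : |y| ≤ 1 := by linarith
  obtain ⟨j, hj, τ, hτ, h1, h2, h3⟩ := exists_sector N hN x y t hy
  obtain ⟨k, hk, σ, hσ, h1', h2', h3'⟩ := exists_sector N hN (-y) x (1 - t) hx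
  rcases le_or_gt (t - lam * tbar N j * x) (rho N j) with hle | hA
  · exact Or.inl ⟨j, hj, h1, h2, hle⟩
  rcases le_or_gt ((1 - t) - lam * tbar N k * (-y)) (rho N k) with hle | hB
  · exact Or.inr ⟨k, hk, h1', h2', hle⟩
  exfalso
  obtain ⟨hA', hτ1⟩ := trunc_aux N hN j hj τ x t hτ hx1 hA
  obtain ⟨hB', hσ1⟩ := trunc_aux N hN k hk σ (-y) (1 - t) hσ (by rwa [abs_neg]) hB
  refine key_ineq σ τ (t - lam * τ * x) ((1 - t) - lam * σ * (-y)) x y hσ1 hτ1 ?_ ?_ ?_ hA' hB'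
  · unfold gfun at h3; linear_combination h3
  · unfold gfun at h3'; linear_combination h3'
  · ring


/-! ## The area estimate -/

theorem inv_sqrt_le (s : ℝ) (hs : 0 ≤ s) :
    1 / Real.sqrt (1 + s) ≤ 1 - s / 2 + 3 * s ^ 2 / 8 := by
  have hq : 0 < 1 - s / 2 + 3 * s ^ 2 / 8 := by nlinarith [sq_nonneg (s - 2 / 3)]
  have hpos : 0 < Real.sqrt (1 + s) := Real.sqrt_pos.mpr (by linarith)
  have hkey : 1 ≤ (1 - s / 2 + 3 * s ^ 2 / 8) ^ 2 * (1 + s) := by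
    have e : (1 - s / 2 + 3 * s ^ 2 / 8) ^ 2 * (1 + s) - 1 =
        s ^ 3 * (5 / 8 - 15 * s / 64 + 9 * s ^ 2 / 64) := by ring
    have h3 : 0 ≤ s ^ 3 := by positivity
    have h4 : 0 ≤ 5 / 8 - 15 * s / 64 + 9 * s ^ 2 / 64 := by nlinarith [sq_nonneg (s - 5 / 6)]
    have := mul_nonneg h3 h4
    linarith
  rw [div_le_iff₀ hpos]
  have h1 : 1 / (1 - s / 2 + 3 * s ^ 2 / 8) ≤ Real.sqrt (1 + s) := by
    apply Real.le_sqrt_of_sq_le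
    rw [div_pow, one_pow, div_le_iff₀ (by positivity)]
    linarith
  calc (1 : ℝ) = (1 - s / 2 + 3 * s ^ 2 / 8) * (1 / (1 - s / 2 + 3 * s ^ 2 / 8)) :=
        (mul_one_div_cancel hq.ne').symm
    _ ≤ (1 - s / 2 + 3 * s ^ 2 / 8) * Real.sqrt (1 + s) := mul_le_mul_of_nonneg_left h1 hq.le

theorem cell_num (τ h : ℝ) (hτ : -1 ≤ τ) (hτ' : τ + h ≤ 1) (hh0 : 0 ≤ h) (hh : h ≤ 1 / 500)
    (ρ s : ℝ) (hρ : ρ = 1 / 2 + 1 / 1600 * (τ ^ 2 + τ ^ 4) + 3 / 1600000 + h / 20)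
    (hs : s = (1 / 40 * (1 + τ * (τ + h))) ^ 2 + 2 * (1 / 20 * ((τ + (τ + h)) / 2)) ^ 2) :
    ρ ^ 2 / Real.sqrt (1 + s) ≤
      1 / 4 + 1 / 12800 * (7 * τ ^ 4 - 2 * τ ^ 2 - 1) + 133 / 10000000 + h / 10 := by
  have hτ1 : τ ≤ 1 := by linarith
  have hτ2 : τ ^ 2 ≤ 1 := by nlinarith
  have hτ20 : 0 ≤ τ ^ 2 := sq_nonneg τ
  have hτ4 : τ ^ 4 ≤ 1 := by
    have : τ ^ 4 = τ ^ 2 * τ ^ 2 := by ring
    rw [this]; exact mul_le_one₀ hτ2 hτ20 hτ2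
  have hτ40 : 0 ≤ τ ^ 4 := by positivity
  have hs0 : 0 ≤ s := by rw [hs]; positivity
  -- upper bound for s
  have hp : |τ * (τ + h)| ≤ 1 := by
    rw [abs_mul]
    have h1 : |τ| ≤ 1 := abs_le.mpr ⟨hτ, hτ1⟩
    have h2 : |τ + h| ≤ 1 := abs_le.mpr ⟨by linarith, hτ'⟩
    calc |τ| * |τ + h| ≤ 1 * 1 := mul_le_mul h1 h2 (abs_nonneg _) (by norm_num)
      _ = 1 := by norm_num
  have hp' := abs_le.mp hp
  have hsq1 : (1 + τ * (τ + h)) ^ 2 ≤ 4 := by nlinarith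
  have hsq2 : ((τ + (τ + h)) / 2) ^ 2 ≤ 1 := by nlinarith
  have es1 : (1 / 40 * (1 + τ * (τ + h))) ^ 2 = 1 / 1600 * (1 + τ * (τ + h)) ^ 2 := by ring
  have es2 : 2 * (1 / 20 * ((τ + (τ + h)) / 2)) ^ 2 = 1 / 200 * ((τ + (τ + h)) / 2) ^ 2 := by ring
  have hs1 : s ≤ 1 / 100 := by rw [hs, es1, es2]; linarith
  have hs2 : s ^ 2 ≤ 1 / 10000 := by
    have := pow_le_pow_left₀ hs0 hs1 2
    norm_num at this
    linarith
  -- lower bound for s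
  have hAB : -(2 * h) ≤ (1 + τ ^ 2) * (h * τ) := by
    have h1 : 0 ≤ (1 + τ ^ 2) * (h * (1 + τ)) := by
      apply mul_nonneg (by linarith) (mul_nonneg hh0 (by linarith))
    nlinarith
  have hslow : 1 / 1600 * (1 + τ ^ 2) ^ 2 + 1 / 200 * τ ^ 2 - 13 / 1600 * h ≤ s := by
    have e1 : (1 + τ * (τ + h)) ^ 2 = (1 + τ ^ 2) ^ 2 + 2 * ((1 + τ ^ 2) * (h * τ)) + (h * τ) ^ 2 := by
      ring
    have e2 : ((τ + (τ + h)) / 2) ^ 2 = τ ^ 2 + h * τ + h ^ 2 / 4 := by ring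
    have h3 : 0 ≤ (h * τ) ^ 2 := sq_nonneg _
    have h4 : -h ≤ h * τ := by nlinarith
    have h5 : 0 ≤ h ^ 2 / 4 := by positivity
    rw [hs, es1, es2, e1, e2]
    linarith
  -- ρ
  have hε0 : 0 ≤ ρ - 1 / 2 := by rw [hρ]; linarith
  have hε1 : ρ - 1 / 2 ≤ 14 / 10000 := by rw [hρ]; linarith
  have hρ2 : ρ ^ 2 = 1 / 4 + (ρ - 1 / 2) + (ρ - 1 / 2) ^ 2 := by ring
  have hεsq : (ρ - 1 / 2) ^ 2 ≤ 196 / 100000000 := by
    have := pow_le_pow_left₀ hε0 hε1 2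
    norm_num at this
    linarith
  have hεsq0 : 0 ≤ (ρ - 1 / 2) ^ 2 := sq_nonneg _
  have hρ2lo : 1 / 4 ≤ ρ ^ 2 := by linarith
  have hρ2hi : ρ ^ 2 ≤ 2515 / 10000 := by linarith
  have hρ20 : 0 ≤ ρ ^ 2 := sq_nonneg ρ
  have hq := inv_sqrt_le s hs0
  have hstep : ρ ^ 2 / Real.sqrt (1 + s) ≤ ρ ^ 2 * (1 - s / 2 + 3 * s ^ 2 / 8) := by
    rw [div_eq_mul_one_div]
    exact mul_le_mul_of_nonneg_left hq hρ20
  have h6 : 1 / 4 * s ≤ ρ ^ 2 * s := mul_le_mul_of_nonneg_right hρ2lo hs0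
  have h7 : ρ ^ 2 * s ^ 2 ≤ 2515 / 10000 * (1 / 10000) := by
    apply mul_le_mul hρ2hi hs2 (sq_nonneg s) (by norm_num)
  have hexp : ρ ^ 2 * (1 - s / 2 + 3 * s ^ 2 / 8) = ρ ^ 2 - (ρ ^ 2 * s) / 2 + 3 / 8 * (ρ ^ 2 * s ^ 2) := by
    ring
  have hεid : ρ - 1 / 2 = 1 / 1600 * (τ ^ 2 + τ ^ 4) + 3 / 1600000 + h / 20 := by rw [hρ]; ring
  have hpoly : 1 / 1600 * (τ ^ 2 + τ ^ 4) - (1 / 1600 * (1 + τ ^ 2) ^ 2 + 1 / 200 * τ ^ 2) / 8 =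
      1 / 12800 * (7 * τ ^ 4 - 2 * τ ^ 2 - 1) := by ring
  rw [hexp] at hstep
  linarith

theorem step4 (τ h : ℝ) (hτ : -1 ≤ τ) (hh0 : 0 ≤ h) (hh1 : h ≤ 1) :
    h * τ ^ 4 ≤ ((τ + h) ^ 5 - τ ^ 5) / 5 + 3 * h ^ 2 := by
  have h3 : 0 ≤ τ ^ 3 + 1 := by
    have e : τ ^ 3 + 1 = (τ + 1) * (τ ^ 2 - τ + 1) := by ring
    rw [e]; exact mul_nonneg (by linarith) (by nlinarith [sq_nonneg (τ - 1 / 2)])
  have e : ((τ + h) ^ 5 - τ ^ 5) / 5 - h * τ ^ 4 =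
      2 * τ ^ 3 * h ^ 2 + 2 * τ ^ 2 * h ^ 3 + τ * h ^ 4 + h ^ 5 / 5 := by ring
  have t1 : 0 ≤ (τ ^ 3 + 1) * h ^ 2 := mul_nonneg h3 (sq_nonneg h)
  have t2 : 0 ≤ 2 * τ ^ 2 * h ^ 3 := by positivity
  have t3 : 0 ≤ (τ + 1) * h ^ 4 := mul_nonneg (by linarith) (by positivity)
  have t4 : 0 ≤ h ^ 5 / 5 := by positivity
  have t5 : h ^ 4 ≤ h ^ 2 := by
    have : h ^ 4 = h ^ 2 * h ^ 2 := by ring
    rw [this]
    have hh2 : h ^ 2 ≤ 1 := by nlinarith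
    calc h ^ 2 * h ^ 2 ≤ h ^ 2 * 1 := mul_le_mul_of_nonneg_left hh2 (sq_nonneg h)
      _ = h ^ 2 := by ring
  nlinarith

theorem step2 (τ h : ℝ) (hτ : τ ≤ 1) (hh0 : 0 ≤ h) (hh1 : h ≤ 1) :
    ((τ + h) ^ 3 - τ ^ 3) / 3 - 2 * h ^ 2 ≤ h * τ ^ 2 := by
  have e : ((τ + h) ^ 3 - τ ^ 3) / 3 - h * τ ^ 2 = τ * h ^ 2 + h ^ 3 / 3 := by ring
  have t1 : 0 ≤ (1 - τ) * h ^ 2 := mul_nonneg (by linarith) (sq_nonneg h)
  have t2 : h ^ 3 ≤ h ^ 2 := by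
    have : h ^ 3 = h ^ 2 * h := by ring
    rw [this]
    calc h ^ 2 * h ≤ h ^ 2 * 1 := mul_le_mul_of_nonneg_left hh1 (sq_nonneg h)
      _ = h ^ 2 := by ring
  nlinarith

theorem sum_pow4 (N : ℕ) (hN : 2 ≤ N) (n : ℕ) (hn : n ≤ N) :
    ∑ j ∈ Finset.range n, (2 / (N : ℝ)) * (tau N j) ^ 4 ≤
      ((tau N n) ^ 5 + 1) / 5 + (n : ℝ) * (3 * (2 / (N : ℝ)) ^ 2) := by
  have hN' : (2 : ℝ) ≤ N := by exact_mod_cast hN
  have hh0 : (0 : ℝ) ≤ 2 / (N : ℝ) := by positivity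
  have hh1 : 2 / (N : ℝ) ≤ 1 := by rw [div_le_one (by linarith)]; exact hN'
  induction n with
  | zero => norm_num [tau_zero]
  | succ n ih =>
    rw [Finset.sum_range_succ, tau_succ]
    have ih' := ih (Nat.le_of_succ_le hn)
    have hs := step4 (tau N n) (2 / (N : ℝ)) (tau_ge N n) hh0 hh1
    push_cast
    linarith

theorem sum_pow2 (N : ℕ) (hN : 2 ≤ N) (n : ℕ) (hn : n ≤ N) :
    ((tau N n) ^ 3 + 1) / 3 - (n : ℝ) * (2 * (2 / (N : ℝ)) ^ 2) ≤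
      ∑ j ∈ Finset.range n, (2 / (N : ℝ)) * (tau N j) ^ 2 := by
  have hN' : (2 : ℝ) ≤ N := by exact_mod_cast hN
  have hh0 : (0 : ℝ) ≤ 2 / (N : ℝ) := by positivity
  have hh1 : 2 / (N : ℝ) ≤ 1 := by rw [div_le_one (by linarith)]; exact hN'
  induction n with
  | zero => norm_num [tau_zero]
  | succ n ih =>
    rw [Finset.sum_range_succ, tau_succ]
    have ih' := ih (Nat.le_of_succ_le hn)
    have hs := step2 (tau N n) (2 / (N : ℝ)) (tau_le N n (by omega) (by omega)) hh0 hh1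
    push_cast
    linarith

/-- `d_y² + 2 d_t²`, the squared norm of the axis direction minus one -/
def sfun (N j : ℕ) : ℝ :=
  (lam / 2 * (1 + tau N j * tau N (j + 1))) ^ 2 + 2 * (lam * tbar N j) ^ 2

/-- base area of the `j`-th cylinder, divided by `√2/2` -/
def cellA (N j : ℕ) : ℝ := rho N j ^ 2 * (2 / (N : ℝ)) / Real.sqrt (1 + sfun N j)

theorem cellA_le (N : ℕ) (hN : 1000 ≤ N) (j : ℕ) (hj : j < N) :
    cellA N j ≤ (2 / (N : ℝ)) * (1 / 4 + 1 / 12800 * (7 * (tau N j) ^ 4 - 2 * (tau N j) ^ 2 - 1)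
      + 133 / 10000000 + (2 / (N : ℝ)) / 10) := by
  have hN' : (1000 : ℝ) ≤ N := by exact_mod_cast hN
  have hh0 : (0 : ℝ) ≤ 2 / (N : ℝ) := by positivity
  have hh1 : 2 / (N : ℝ) ≤ 1 / 500 := by
    rw [div_le_iff₀ (by linarith)]; linarith
  have hlam : lam = 1 / 20 := rfl
  have h := cell_num (tau N j) (2 / (N : ℝ)) (tau_ge N j)
    (by rw [← tau_succ]; exact tau_le N (j + 1) (by omega) hj) hh0 hh1 (rho N j) (sfun N j)
    (by unfold rho rhoT; rw [hlam]; ring)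
    (by unfold sfun tbar; rw [tau_succ, hlam]; ring)
  unfold cellA
  have e : rho N j ^ 2 * (2 / (N : ℝ)) / Real.sqrt (1 + sfun N j) =
      (2 / (N : ℝ)) * (rho N j ^ 2 / Real.sqrt (1 + sfun N j)) := by ring
  rw [e]
  exact mul_le_mul_of_nonneg_left h hh0

theorem sum_cellA_le (N : ℕ) (hN : 1000 ≤ N) :
    ∑ j ∈ Finset.range N, cellA N j ≤
      1 / 2 - 1 / 24000 + 266 / 10000000 + 21 / 100 * (2 / (N : ℝ)) := by
  have hN' : (1000 : ℝ) ≤ N := by exact_mod_cast hN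
  have hN0 : (N : ℝ) ≠ 0 := by linarith
  have hh0 : (0 : ℝ) ≤ 2 / (N : ℝ) := by positivity
  have hh1 : 2 / (N : ℝ) ≤ 1 / 500 := by
    rw [div_le_iff₀ (by linarith)]; linarith
  have hNh : (N : ℝ) * (2 / (N : ℝ)) = 2 := by field_simp
  have h4 := sum_pow4 N (by omega) N le_rfl
  have h2 := sum_pow2 N (by omega) N le_rfl
  rw [tau_N N (by omega)] at h4 h2
  have hsum : ∑ j ∈ Finset.range N, cellA N j ≤
      ∑ j ∈ Finset.range N, ((2 / (N : ℝ)) * (1 / 4 - 1 / 12800 + 133 / 10000000 + (2 / (N : ℝ)) / 10)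
        + 7 / 12800 * ((2 / (N : ℝ)) * (tau N j) ^ 4) - 2 / 12800 * ((2 / (N : ℝ)) * (tau N j) ^ 2)) := by
    apply Finset.sum_le_sum
    intro j hj
    have := cellA_le N hN j (Finset.mem_range.mp hj)
    linarith
  rw [Finset.sum_sub_distrib, Finset.sum_add_distrib, Finset.sum_const, Finset.card_range,
    nsmul_eq_mul] at hsum
  simp only [← Finset.mul_sum] at hsum
  rw [← Finset.mul_sum] at h4 h2
  have e : (N : ℝ) * ((2 / (N : ℝ)) * (1 / 4 - 1 / 12800 + 133 / 10000000 + (2 / (N : ℝ)) / 10)) =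
      2 * (1 / 4 - 1 / 12800 + 133 / 10000000 + (2 / (N : ℝ)) / 10) := by
    rw [← mul_assoc, hNh]
  rw [e] at hsum
  have e4 : (N : ℝ) * (3 * (2 / (N : ℝ)) ^ 2) = 6 * (2 / (N : ℝ)) := by
    have : (N : ℝ) * (3 * (2 / (N : ℝ)) ^ 2) = 3 * ((N : ℝ) * (2 / (N : ℝ))) * (2 / (N : ℝ)) := by ring
    rw [this, hNh]; ring
  have e2 : (N : ℝ) * (2 * (2 / (N : ℝ)) ^ 2) = 4 * (2 / (N : ℝ)) := by
    have : (N : ℝ) * (2 * (2 / (N : ℝ)) ^ 2) = 2 * ((N : ℝ) * (2 / (N : ℝ))) * (2 / (N : ℝ)) := by ring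
    rw [this, hNh]; ring
  rw [e4] at h4
  rw [e2] at h2
  linarith

end

end Crest.Agent.Helper20
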