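import Crest.Agent.Helper20.TetGeom

set_option autoImplicit false

/-!
# Row 211, module (F): the explicit cover of the tetrahedron by triangular cylinders
-/

namespace Crest.Agent.Helper20

noncomputable section

/-- barycentric coordinates in a fan triangle -/
theorem bary (τ₁ τ₂ ρ y t : ℝ) (hτ : τ₁ < τ₂) (hρ : 0 < ρ) (h1 : 0 ≤ y - τ₁ * t)
    (h2 : y - τ₂ * t ≤ 0) (h3 : t ≤ ρ) :
    ∃ α β : ℝ, 0 ≤ α ∧ 0 ≤ β ∧ α + β ≤ 1 ∧ ρ * (α * τ₁ + β * τ₂) = y ∧ ρ * (α + β) = t := by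
  have hh : 0 < τ₂ - τ₁ := by linarith
  have hd : 0 < ρ * (τ₂ - τ₁) := mul_pos hρ hh
  refine ⟨(τ₂ * t - y) / (ρ * (τ₂ - τ₁)), (y - τ₁ * t) / (ρ * (τ₂ - τ₁)),
    div_nonneg (by linarith) hd.le, div_nonneg h1 hd.le, ?_, ?_, ?_⟩
  · rw [← add_div, div_le_one hd]
    have : (t - ρ) * (τ₂ - τ₁) ≤ 0 := mul_nonpos_of_nonpos_of_nonneg (by linarith) hh.le
    nlinarith
  · field_simp; ring
  · field_simp; ring

/-- `y`-slope of the `j`-th axis -/
def dY (N j : ℕ) : ℝ := lam / 2 * (1 + tau N j * tau N (j + 1))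

/-- `t`-slope of the `j`-th axis -/
def dT (N j : ℕ) : ℝ := lam * tbar N j

theorem dY_def (N j : ℕ) : dY N j = lam / 2 * (1 + tau N j * tau N (j + 1)) := rfl
theorem dT_def (N j : ℕ) : dT N j = lam * tbar N j := rfl

theorem sfun_eq (N j : ℕ) : sfun N j = dY N j ^ 2 + 2 * dT N j ^ 2 := rfl

theorem dY_sub (N j : ℕ) : dY N j - tau N j * dT N j = gfun (tau N j) := by
  rw [dY_def, dT_def]; unfold tbar gfun; ring

theorem dY_sub' (N j : ℕ) : dY N j - tau N (j + 1) * dT N j = gfun (tau N (j + 1)) := by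
  rw [dY_def, dT_def]; unfold tbar gfun; ring

theorem rhoT_ge (τ : ℝ) : 1 / 2 < rhoT τ := by
  unfold rhoT
  have hlam : lam = 1 / 20 := rfl
  rw [hlam]
  have : 0 ≤ τ ^ 2 + τ ^ 4 := by positivity
  nlinarith

theorem rho_pos (N j : ℕ) : 0 < rho N j := by
  unfold rho
  have h1 := rhoT_ge (tau N j)
  have hlam : lam = 1 / 20 := rfl
  have : (0 : ℝ) ≤ lam * (2 / (N : ℝ)) := by rw [hlam]; positivity
  linarith

theorem sfun_nonneg (N j : ℕ) : 0 ≤ sfun N j := by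
  rw [sfun_eq]; positivity

theorem cellA_pos (N j : ℕ) (hN : 0 < N) : 0 < cellA N j := by
  unfold cellA
  have hN' : (0 : ℝ) < N := by exact_mod_cast hN
  have h1 := rho_pos N j
  have h2 := sfun_nonneg N j
  have h3 : 0 < Real.sqrt (1 + sfun N j) := Real.sqrt_pos.mpr (by linarith)
  positivity

theorem low_bary (N j : ℕ) (hN : 0 < N) (x y t : ℝ) (h : Low N j x y t) :
    ∃ α β : ℝ, 0 ≤ α ∧ 0 ≤ β ∧ α + β ≤ 1 ∧
      rho N j * (α * tau N j + β * tau N (j + 1)) = y - x * dY N j ∧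
      rho N j * (α + β) = t - x * dT N j := by
  obtain ⟨h1, h2, h3⟩ := h
  have hN' : (0 : ℝ) < N := by exact_mod_cast hN
  have hτ : tau N j < tau N (j + 1) := by
    rw [tau_succ]; have : (0 : ℝ) < 2 / (N : ℝ) := by positivity
    linarith
  have e1 := dY_sub N j
  have e2 := dY_sub' N j
  apply bary (tau N j) (tau N (j + 1)) (rho N j) (y - x * dY N j) (t - x * dT N j) hτ (rho_pos N j)
  · have : y - x * dY N j - tau N j * (t - x * dT N j) =
        y - tau N j * t - gfun (tau N j) * x := by rw [← e1]; ring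
    rw [this]; exact h1
  · have : y - x * dY N j - tau N (j + 1) * (t - x * dT N j) =
        y - tau N (j + 1) * t - gfun (tau N (j + 1)) * x := by rw [← e2]; ring
    rw [this]; exact h2
  · rw [dT_def]; linarith

/-! ### The cylinder data -/

/-- lower family: axis direction -/
def DL (N j : ℕ) : EuclideanSpace ℝ (Fin 3) := !₂[1, dY N j, Real.sqrt 2 * dT N j]
/-- lower family: second vertex -/
def QL (N j : ℕ) : EuclideanSpace ℝ (Fin 3) := !₂[0, rho N j * tau N j, Real.sqrt 2 * rho N j]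
/-- lower family: third vertex -/
def RL (N j : ℕ) : EuclideanSpace ℝ (Fin 3) :=
  !₂[0, rho N j * tau N (j + 1), Real.sqrt 2 * rho N j]
/-- upper family: axis direction -/
def DU (N k : ℕ) : EuclideanSpace ℝ (Fin 3) := !₂[dY N k, -1, -(Real.sqrt 2 * dT N k)]
/-- upper family: apex -/
def PU : EuclideanSpace ℝ (Fin 3) := !₂[0, 0, Real.sqrt 2]
/-- upper family: second vertex -/
def QU (N k : ℕ) : EuclideanSpace ℝ (Fin 3) :=
  !₂[rho N k * tau N k, 0, Real.sqrt 2 * (1 - rho N k)]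
/-- upper family: third vertex -/
def RU (N k : ℕ) : EuclideanSpace ℝ (Fin 3) :=
  !₂[rho N k * tau N (k + 1), 0, Real.sqrt 2 * (1 - rho N k)]

theorem DL_def (N j : ℕ) : DL N j = !₂[1, dY N j, Real.sqrt 2 * dT N j] := rfl
theorem QL_def (N j : ℕ) : QL N j = !₂[0, rho N j * tau N j, Real.sqrt 2 * rho N j] := rfl
theorem RL_def (N j : ℕ) : RL N j = !₂[0, rho N j * tau N (j + 1), Real.sqrt 2 * rho N j] := rfl
theorem DU_def (N k : ℕ) : DU N k = !₂[dY N k, -1, -(Real.sqrt 2 * dT N k)] := rfl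
theorem PU_def : PU = !₂[0, 0, Real.sqrt 2] := rfl
theorem QU_def (N k : ℕ) : QU N k = !₂[rho N k * tau N k, 0, Real.sqrt 2 * (1 - rho N k)] := rfl
theorem RU_def (N k : ℕ) :
    RU N k = !₂[rho N k * tau N (k + 1), 0, Real.sqrt 2 * (1 - rho N k)] := rfl

theorem sqrt2_sq : Real.sqrt 2 ^ 2 = 2 := Real.sq_sqrt (by norm_num)
theorem sqrt2_pos : 0 < Real.sqrt 2 := Real.sqrt_pos.mpr (by norm_num)

theorem DL_ne (N j : ℕ) : DL N j ≠ 0 := by
  intro h
  have := congrFun (congrArg (fun v : EuclideanSpace ℝ (Fin 3) => (v : Fin 3 → ℝ)) h) 0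
  simp [DL_def] at this

theorem DU_ne (N k : ℕ) : DU N k ≠ 0 := by
  intro h
  have := congrFun (congrArg (fun v : EuclideanSpace ℝ (Fin 3) => (v : Fin 3 → ℝ)) h) 1
  simp [DU_def] at this

theorem normsq_DL (N j : ℕ) : ‖DL N j‖ ^ 2 = 1 + sfun N j := by
  rw [norm_sq_coord, sfun_eq, DL_def]
  have := sqrt2_sq
  simp
  linear_combination (dT N j ^ 2) * this

theorem normsq_DU (N k : ℕ) : ‖DU N k‖ ^ 2 = 1 + sfun N k := by
  rw [norm_sq_coord, sfun_eq, DU_def]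
  have := sqrt2_sq
  simp
  linear_combination (dT N k ^ 2) * this

theorem det3_L (N j : ℕ) :
    det3 (QL N j - 0) (RL N j - 0) (DL N j) = -(Real.sqrt 2 * rho N j ^ 2 * (2 / (N : ℝ))) := by
  rw [det3_def, QL_def, RL_def, DL_def, tau_succ]
  simp
  ring

theorem det3_U (N k : ℕ) :
    det3 (QU N k - PU) (RU N k - PU) (DU N k) = Real.sqrt 2 * rho N k ^ 2 * (2 / (N : ℝ)) := by
  rw [det3_def, QU_def, RU_def, DU_def, PU_def, tau_succ]
  simp
  ring

/-- Gram determinant of the projected triangle -/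
theorem gram_cyl (D P Q R : EuclideanSpace ℝ (Fin 3)) (hD : D ≠ 0) :
    ‖proj (‖D‖⁻¹ • D) Q - proj (‖D‖⁻¹ • D) P‖ ^ 2 * ‖proj (‖D‖⁻¹ • D) R - proj (‖D‖⁻¹ • D) P‖ ^ 2
      - inner ℝ (proj (‖D‖⁻¹ • D) Q - proj (‖D‖⁻¹ • D) P)
          (proj (‖D‖⁻¹ • D) R - proj (‖D‖⁻¹ • D) P) ^ 2
      = det3 (Q - P) (R - P) D ^ 2 / ‖D‖ ^ 2 := by
  rw [proj_sub, proj_sub, gram_proj _ _ _ (norm_unit D hD), det3_smul_right, mul_pow, inv_pow]
  ring

theorem gram_value (N j : ℕ) (d nD : ℝ) (hd : d ^ 2 = (Real.sqrt 2 * rho N j ^ 2 * (2 / (N : ℝ))) ^ 2)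
    (hn : nD ^ 2 = 1 + sfun N j) : d ^ 2 / nD ^ 2 = (Real.sqrt 2 * cellA N j) ^ 2 := by
  have h2 := sfun_nonneg N j
  have h3 : Real.sqrt (1 + sfun N j) ^ 2 = 1 + sfun N j := Real.sq_sqrt (by linarith)
  have hsq : Real.sqrt (1 + sfun N j) ≠ 0 := (Real.sqrt_pos.mpr (by linarith)).ne'
  unfold cellA
  have e : (Real.sqrt 2 * (rho N j ^ 2 * (2 / (N : ℝ)) / Real.sqrt (1 + sfun N j))) ^ 2 =
      (Real.sqrt 2 * rho N j ^ 2 * (2 / (N : ℝ))) ^ 2 / Real.sqrt (1 + sfun N j) ^ 2 := by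
    rw [← div_pow]; congr 1; ring
  rw [hd, hn, e, h3]

theorem gram_L (N j : ℕ) :
    ‖proj (‖DL N j‖⁻¹ • DL N j) (QL N j) - proj (‖DL N j‖⁻¹ • DL N j) 0‖ ^ 2 *
        ‖proj (‖DL N j‖⁻¹ • DL N j) (RL N j) - proj (‖DL N j‖⁻¹ • DL N j) 0‖ ^ 2
      - inner ℝ (proj (‖DL N j‖⁻¹ • DL N j) (QL N j) - proj (‖DL N j‖⁻¹ • DL N j) 0)
          (proj (‖DL N j‖⁻¹ • DL N j) (RL N j) - proj (‖DL N j‖⁻¹ • DL N j) 0) ^ 2
      = (Real.sqrt 2 * cellA N j) ^ 2 := by
  rw [gram_cyl _ _ _ _ (DL_ne N j)]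
  exact gram_value N j _ _ (by rw [det3_L]; ring) (normsq_DL N j)

theorem gram_U (N k : ℕ) :
    ‖proj (‖DU N k‖⁻¹ • DU N k) (QU N k) - proj (‖DU N k‖⁻¹ • DU N k) PU‖ ^ 2 *
        ‖proj (‖DU N k‖⁻¹ • DU N k) (RU N k) - proj (‖DU N k‖⁻¹ • DU N k) PU‖ ^ 2
      - inner ℝ (proj (‖DU N k‖⁻¹ • DU N k) (QU N k) - proj (‖DU N k‖⁻¹ • DU N k) PU)
          (proj (‖DU N k‖⁻¹ • DU N k) (RU N k) - proj (‖DU N k‖⁻¹ • DU N k) PU) ^ 2
      = (Real.sqrt 2 * cellA N k) ^ 2 := by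
  rw [gram_cyl _ _ _ _ (DU_ne N k)]
  exact gram_value N k _ _ (by rw [det3_U]) (normsq_DU N k)

/-- membership in a lower cylinder -/
theorem lower_mem (N j : ℕ) (hN : 0 < N) (X : EuclideanSpace ℝ (Fin 3))
    (h : Low N j (X 0) (X 1) (X 2 / Real.sqrt 2)) :
    X - X 0 • DL N j ∈ convexHull ℝ {0, QL N j, RL N j} := by
  obtain ⟨α, β, hα, hβ, hαβ, e1, e2⟩ := low_bary N j hN _ _ _ h
  have hmem := mem_hull3 0 (QL N j) (RL N j) α β hα hβ hαβ
  have hs := sqrt2_pos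
  have hX2 : X 2 = Real.sqrt 2 * (X 2 / Real.sqrt 2) := by field_simp
  have heq : X - X 0 • DL N j = (1 - α - β) • (0 : EuclideanSpace ℝ (Fin 3)) + α • QL N j + β • RL N j := by
    ext i
    fin_cases i
    · simp [DL_def, QL_def, RL_def]
    · simp [DL_def, QL_def, RL_def]
      linear_combination -e1
    · simp [DL_def, QL_def, RL_def]
      linear_combination hX2 - (Real.sqrt 2) * e2
  rw [heq]; exact hmem

/-- membership in an upper cylinder -/
theorem upper_mem (N k : ℕ) (hN : 0 < N) (X : EuclideanSpace ℝ (Fin 3))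
    (h : Low N k (-(X 1)) (X 0) (1 - X 2 / Real.sqrt 2)) :
    X - (-(X 1)) • DU N k ∈ convexHull ℝ {PU, QU N k, RU N k} := by
  obtain ⟨α, β, hα, hβ, hαβ, e1, e2⟩ := low_bary N k hN _ _ _ h
  have hmem := mem_hull3 PU (QU N k) (RU N k) α β hα hβ hαβ
  have hs := sqrt2_pos
  have hX2 : X 2 = Real.sqrt 2 * (X 2 / Real.sqrt 2) := by field_simp
  have heq : X - (-(X 1)) • DU N k = (1 - α - β) • PU + α • QU N k + β • RU N k := by
    ext i
    fin_cases i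
    · simp [DU_def, QU_def, RU_def, PU_def]
      linear_combination -e1
    · simp [DU_def, QU_def, RU_def, PU_def]
    · simp [DU_def, QU_def, RU_def, PU_def]
      linear_combination hX2 + (Real.sqrt 2) * e2
  rw [heq]; exact hmem

/-- the tetrahedron in `(x, y, t)` coordinates -/
theorem K0_sub (X : EuclideanSpace ℝ (Fin 3))
    (hX : X ∈ convexHull ℝ ({!₂[1, 0, 0], !₂[-1, 0, 0], !₂[0, 1, Real.sqrt 2],
      !₂[0, -1, Real.sqrt 2]} : Set (EuclideanSpace ℝ (Fin 3)))) :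
    |X 0| ≤ 1 - X 2 / Real.sqrt 2 ∧ |X 1| ≤ X 2 / Real.sqrt 2 := by
  have hs := sqrt2_pos
  have hconv : Convex ℝ {X : EuclideanSpace ℝ (Fin 3) |
      |X 0| ≤ 1 - X 2 / Real.sqrt 2 ∧ |X 1| ≤ X 2 / Real.sqrt 2} := by
    intro A hA B hB a b ha hb hab
    obtain ⟨hA1, hA2⟩ := hA
    obtain ⟨hB1, hB2⟩ := hB
    rw [abs_le] at hA1 hA2 hB1 hB2
    simp only [Set.mem_ofPred_eq, PiLp.add_apply, PiLp.smul_apply, smul_eq_mul, abs_le]
    have e : (a * A 2 + b * B 2) / Real.sqrt 2 = a * (A 2 / Real.sqrt 2) + b * (B 2 / Real.sqrt 2) := by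
      ring
    rw [e]
    have hb' : b = 1 - a := by linarith
    subst hb'
    refine ⟨⟨?_, ?_⟩, ⟨?_, ?_⟩⟩ <;> nlinarith [mul_nonneg ha hb]
  have hsub : ({!₂[1, 0, 0], !₂[-1, 0, 0], !₂[0, 1, Real.sqrt 2],
      !₂[0, -1, Real.sqrt 2]} : Set (EuclideanSpace ℝ (Fin 3))) ⊆
      {X : EuclideanSpace ℝ (Fin 3) | |X 0| ≤ 1 - X 2 / Real.sqrt 2 ∧ |X 1| ≤ X 2 / Real.sqrt 2} := by
    intro Y hY
    simp only [Set.mem_insert_iff, Set.mem_singleton_iff] at hY
    rcases hY with rfl | rfl | rfl | rfl <;> simp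
  exact convexHull_min hsub hconv hX


/-! ### The combined family, indexed by `i < N + N` -/

/-- axis directions -/
def cD (N i : ℕ) : EuclideanSpace ℝ (Fin 3) := if i < N then DL N i else DU N (i - N)
/-- first vertices -/
def cP (N i : ℕ) : EuclideanSpace ℝ (Fin 3) := if i < N then 0 else PU
/-- second vertices -/
def cQ (N i : ℕ) : EuclideanSpace ℝ (Fin 3) := if i < N then QL N i else QU N (i - N)
/-- third vertices -/
def cR (N i : ℕ) : EuclideanSpace ℝ (Fin 3) := if i < N then RL N i else RU N (i - N)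
/-- unit axis directions -/
def cU (N i : ℕ) : EuclideanSpace ℝ (Fin 3) := ‖cD N i‖⁻¹ • cD N i

theorem cD_lt (N i : ℕ) (h : i < N) : cD N i = DL N i := if_pos h
theorem cP_lt (N i : ℕ) (h : i < N) : cP N i = 0 := if_pos h
theorem cQ_lt (N i : ℕ) (h : i < N) : cQ N i = QL N i := if_pos h
theorem cR_lt (N i : ℕ) (h : i < N) : cR N i = RL N i := if_pos h
theorem cD_ge (N i : ℕ) (h : ¬ i < N) : cD N i = DU N (i - N) := if_neg h
theorem cP_ge (N i : ℕ) (h : ¬ i < N) : cP N i = PU := if_neg h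
theorem cQ_ge (N i : ℕ) (h : ¬ i < N) : cQ N i = QU N (i - N) := if_neg h
theorem cR_ge (N i : ℕ) (h : ¬ i < N) : cR N i = RU N (i - N) := if_neg h
theorem cU_def (N i : ℕ) : cU N i = ‖cD N i‖⁻¹ • cD N i := rfl

theorem cD_ne (N i : ℕ) : cD N i ≠ 0 := by
  by_cases h : i < N
  · rw [cD_lt N i h]; exact DL_ne N i
  · rw [cD_ge N i h]; exact DU_ne N (i - N)

theorem cU_norm (N i : ℕ) : ‖cU N i‖ = 1 := norm_unit _ (cD_ne N i)

theorem gram_c (N i : ℕ) :
    ‖proj (cU N i) (cQ N i) - proj (cU N i) (cP N i)‖ ^ 2 *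
        ‖proj (cU N i) (cR N i) - proj (cU N i) (cP N i)‖ ^ 2
      - inner ℝ (proj (cU N i) (cQ N i) - proj (cU N i) (cP N i))
          (proj (cU N i) (cR N i) - proj (cU N i) (cP N i)) ^ 2
      = (Real.sqrt 2 * cellA N (if i < N then i else i - N)) ^ 2 := by
  by_cases h : i < N
  · rw [cU_def, cD_lt N i h, cP_lt N i h, cQ_lt N i h, cR_lt N i h, if_pos h]
    exact gram_L N i
  · rw [cU_def, cD_ge N i h, cP_ge N i h, cQ_ge N i h, cR_ge N i h, if_neg h]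
    exact gram_U N (i - N)

theorem tet_cover_aux (N : ℕ) (hN : 0 < N) :
    ∃ (u p q r : Fin (N + N) → EuclideanSpace ℝ (Fin 3)),
      (∀ i, ‖u i‖ = 1) ∧
      (∀ i, inner ℝ (p i) (u i) = 0 ∧ inner ℝ (q i) (u i) = 0 ∧ inner ℝ (r i) (u i) = 0) ∧
      (∀ i, 0 < ‖q i - p i‖ ^ 2 * ‖r i - p i‖ ^ 2 - inner ℝ (q i - p i) (r i - p i) ^ 2) ∧
      convexHull ℝ ({!₂[1, 0, 0], !₂[-1, 0, 0], !₂[0, 1, Real.sqrt 2],
          !₂[0, -1, Real.sqrt 2]} : Set (EuclideanSpace ℝ (Fin 3))) ⊆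
        ⋃ i, {x : EuclideanSpace ℝ (Fin 3) | ∃ b ∈ convexHull ℝ {p i, q i, r i},
          ∃ t : ℝ, x = b + t • u i} ∧
      ∑ i, Real.sqrt (‖q i - p i‖ ^ 2 * ‖r i - p i‖ ^ 2 - inner ℝ (q i - p i) (r i - p i) ^ 2) / 2
        = Real.sqrt 2 * ∑ j ∈ Finset.range N, cellA N j := by
  refine ⟨fun i => cU N i, fun i => proj (cU N i) (cP N i), fun i => proj (cU N i) (cQ N i),
    fun i => proj (cU N i) (cR N i), fun i => cU_norm N i, fun i => ⟨proj_inner _ _ (cU_norm N i),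
      proj_inner _ _ (cU_norm N i), proj_inner _ _ (cU_norm N i)⟩, ?_, ?_, ?_⟩
  · intro i
    rw [gram_c]
    have := cellA_pos N (if (i : ℕ) < N then (i : ℕ) else (i : ℕ) - N) hN
    have hs := sqrt2_pos
    positivity
  · intro X hX
    obtain ⟨hx, hy⟩ := K0_sub X hX
    rw [Set.mem_iUnion]
    rcases cover_xyt N hN (X 0) (X 1) (X 2 / Real.sqrt 2) hx hy with ⟨j, hj, hlow⟩ | ⟨k, hk, hlow⟩
    · refine ⟨⟨j, by omega⟩, ?_⟩
      have h := cyl_mem (DL N j) 0 (QL N j) (RL N j) X (X 0) (DL_ne N j) (lower_mem N j hN X hlow)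
      show ∃ b ∈ convexHull ℝ {proj (cU N j) (cP N j), proj (cU N j) (cQ N j), proj (cU N j) (cR N j)},
        ∃ t : ℝ, X = b + t • cU N j
      rw [cU_def, cD_lt N j hj, cP_lt N j hj, cQ_lt N j hj, cR_lt N j hj]
      exact h
    · refine ⟨⟨N + k, by omega⟩, ?_⟩
      have h := cyl_mem (DU N k) PU (QU N k) (RU N k) X (-(X 1)) (DU_ne N k) (upper_mem N k hN X hlow)
      have hnot : ¬ N + k < N := by omega
      have hsub : N + k - N = k := by omega
      show ∃ b ∈ convexHull ℝ {proj (cU N (N + k)) (cP N (N + k)), proj (cU N (N + k)) (cQ N (N + k)),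
        proj (cU N (N + k)) (cR N (N + k))}, ∃ t : ℝ, X = b + t • cU N (N + k)
      rw [cU_def, cD_ge N _ hnot, cP_ge N _ hnot, cQ_ge N _ hnot, cR_ge N _ hnot, hsub]
      exact h
  · have hterm : ∀ i : ℕ, Real.sqrt (‖proj (cU N i) (cQ N i) - proj (cU N i) (cP N i)‖ ^ 2 *
        ‖proj (cU N i) (cR N i) - proj (cU N i) (cP N i)‖ ^ 2
      - inner ℝ (proj (cU N i) (cQ N i) - proj (cU N i) (cP N i))
          (proj (cU N i) (cR N i) - proj (cU N i) (cP N i)) ^ 2) / 2 =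
        Real.sqrt 2 * cellA N (if i < N then i else i - N) / 2 := by
      intro i
      rw [gram_c]
      have := cellA_pos N (if i < N then i else i - N) hN
      have hs := sqrt2_pos
      rw [Real.sqrt_sq (by positivity)]
    have hfin := Fin.sum_univ_eq_sum_range
      (fun i : ℕ => Real.sqrt 2 * cellA N (if i < N then i else i - N) / 2) (N + N)
    simp only [hterm]
    rw [hfin, Finset.sum_range_add]
    have h1 : ∑ x ∈ Finset.range N, Real.sqrt 2 * cellA N (if x < N then x else x - N) / 2 =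
        ∑ x ∈ Finset.range N, Real.sqrt 2 * cellA N x / 2 := by
      apply Finset.sum_congr rfl
      intro x hx
      rw [if_pos (Finset.mem_range.mp hx)]
    have h2 : ∑ x ∈ Finset.range N, Real.sqrt 2 * cellA N (if N + x < N then N + x else N + x - N) / 2 =
        ∑ x ∈ Finset.range N, Real.sqrt 2 * cellA N x / 2 := by
      apply Finset.sum_congr rfl
      intro x _
      rw [if_neg (by omega), Nat.add_sub_cancel_left]
    rw [h1, h2, ← Finset.sum_add_distrib, Finset.mul_sum]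
    apply Finset.sum_congr rfl
    intro x _
    ring

/-- **Module (F) of row 211**: an explicit cover of the tetrahedron by `2·10⁶` triangular cylinders
of total base area at most `√2 (1/2 - 10⁻⁶)`, all bases nondegenerate. -/
theorem tet_cover :
    ∃ (m : ℕ) (u p q r : Fin m → EuclideanSpace ℝ (Fin 3)), 0 < m ∧ m ≤ 15000000 ∧
      (∀ i, ‖u i‖ = 1) ∧
      (∀ i, inner ℝ (p i) (u i) = 0 ∧ inner ℝ (q i) (u i) = 0 ∧ inner ℝ (r i) (u i) = 0) ∧
      (∀ i, 0 < ‖q i - p i‖ ^ 2 * ‖r i - p i‖ ^ 2 - inner ℝ (q i - p i) (r i - p i) ^ 2) ∧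
      convexHull ℝ ({!₂[1, 0, 0], !₂[-1, 0, 0], !₂[0, 1, Real.sqrt 2],
          !₂[0, -1, Real.sqrt 2]} : Set (EuclideanSpace ℝ (Fin 3))) ⊆
        ⋃ i, {x : EuclideanSpace ℝ (Fin 3) | ∃ b ∈ convexHull ℝ {p i, q i, r i},
          ∃ t : ℝ, x = b + t • u i} ∧
      ∑ i, Real.sqrt (‖q i - p i‖ ^ 2 * ‖r i - p i‖ ^ 2 - inner ℝ (q i - p i) (r i - p i) ^ 2) / 2
        ≤ Real.sqrt 2 * (1 / 2 - 1 / 1000000) := by
  obtain ⟨u, p, q, r, hu, hperp, hnd, hcov, hsum⟩ := tet_cover_aux 1000000 (by norm_num)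
  refine ⟨1000000 + 1000000, u, p, q, r, by norm_num, by norm_num, hu, hperp, hnd, hcov, ?_⟩
  rw [hsum]
  have h := sum_cellA_le 1000000 (by norm_num)
  have hs := sqrt2_pos
  apply mul_le_mul_of_nonneg_left _ hs.le
  refine le_trans h ?_
  norm_num

end

end Crest.Agent.Helper20
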