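import Crest.Agent.Helper20.TetAlg

set_option autoImplicit false

/-!
# Row 211, module (F): geometry wrapper (cylinders with projected triangle bases)
-/

namespace Crest.Agent.Helper20

noncomputable section

/-- triple product `⟨a × b, c⟩` in coordinates -/
def det3 (a b c : EuclideanSpace ℝ (Fin 3)) : ℝ :=
  a 0 * (b 1 * c 2 - b 2 * c 1) - a 1 * (b 0 * c 2 - b 2 * c 0) + a 2 * (b 0 * c 1 - b 1 * c 0)

theorem det3_def (a b c : EuclideanSpace ℝ (Fin 3)) : det3 a b c =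
    a 0 * (b 1 * c 2 - b 2 * c 1) - a 1 * (b 0 * c 2 - b 2 * c 0) + a 2 * (b 0 * c 1 - b 1 * c 0) :=
  rfl

/-- the map `y ↦ y - ⟪y, u⟫ u` of the statements -/
def proj (u : EuclideanSpace ℝ (Fin 3)) (y : EuclideanSpace ℝ (Fin 3)) : EuclideanSpace ℝ (Fin 3) :=
  y - inner ℝ y u • u

theorem proj_def (u y : EuclideanSpace ℝ (Fin 3)) : proj u y = y - inner ℝ y u • u := rfl

theorem inner_coord (x y : EuclideanSpace ℝ (Fin 3)) :
    inner ℝ x y = x 0 * y 0 + x 1 * y 1 + x 2 * y 2 := by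
  simp [PiLp.inner_apply, Fin.sum_univ_three]
  ring

theorem norm_sq_coord (x : EuclideanSpace ℝ (Fin 3)) : ‖x‖ ^ 2 = x 0 ^ 2 + x 1 ^ 2 + x 2 ^ 2 := by
  rw [EuclideanSpace.norm_sq_eq]
  simp [Fin.sum_univ_three]

theorem proj_apply (u y : EuclideanSpace ℝ (Fin 3)) (i : Fin 3) :
    proj u y i = y i - (y 0 * u 0 + y 1 * u 1 + y 2 * u 2) * u i := by
  rw [proj_def, ← inner_coord]
  simp

theorem proj_isLinear (u : EuclideanSpace ℝ (Fin 3)) : IsLinearMap ℝ (proj u) := by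
  constructor
  · intro x y
    simp only [proj_def, inner_add_left, add_smul]
    abel
  · intro c x
    simp only [proj_def, inner_smul_left, smul_sub, smul_smul]
    simp

theorem proj_sub (u x y : EuclideanSpace ℝ (Fin 3)) : proj u x - proj u y = proj u (x - y) := by
  simp only [proj_def, inner_sub_left, sub_smul]
  abel

theorem proj_inner (u y : EuclideanSpace ℝ (Fin 3)) (hu : ‖u‖ = 1) : inner ℝ (proj u y) u = 0 := by
  rw [proj_def, inner_sub_left, inner_smul_left, real_inner_self_eq_norm_sq, hu]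
  simp

theorem proj_self (u : EuclideanSpace ℝ (Fin 3)) (hu : ‖u‖ = 1) : proj u u = 0 := by
  rw [proj_def, real_inner_self_eq_norm_sq, hu]
  simp

/-- Gram determinant of two projected vectors is the squared triple product. -/
theorem gram_proj (u a b : EuclideanSpace ℝ (Fin 3)) (hu : ‖u‖ = 1) :
    ‖proj u a‖ ^ 2 * ‖proj u b‖ ^ 2 - inner ℝ (proj u a) (proj u b) ^ 2 = det3 a b u ^ 2 := by
  have hu2 : u 0 ^ 2 + u 1 ^ 2 + u 2 ^ 2 = 1 := by
    rw [← norm_sq_coord, hu]; norm_num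
  rw [norm_sq_coord, norm_sq_coord, inner_coord, det3_def]
  simp only [proj_apply]
  linear_combination
    (-(((a 0 ^ 2 + a 1 ^ 2 + a 2 ^ 2) * (b 0 ^ 2 + b 1 ^ 2 + b 2 ^ 2)
        - (a 0 * b 0 + a 1 * b 1 + a 2 * b 2) ^ 2)
      - ((a 0 * u 0 + a 1 * u 1 + a 2 * u 2) ^ 2 * (b 0 ^ 2 + b 1 ^ 2 + b 2 ^ 2)
        + (b 0 * u 0 + b 1 * u 1 + b 2 * u 2) ^ 2 * (a 0 ^ 2 + a 1 ^ 2 + a 2 ^ 2)
        - 2 * (a 0 * u 0 + a 1 * u 1 + a 2 * u 2) * (b 0 * u 0 + b 1 * u 1 + b 2 * u 2)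
          * (a 0 * b 0 + a 1 * b 1 + a 2 * b 2)))) * hu2

theorem det3_smul_right (a b D : EuclideanSpace ℝ (Fin 3)) (c : ℝ) :
    det3 a b (c • D) = c * det3 a b D := by
  simp only [det3_def, PiLp.smul_apply, smul_eq_mul]
  ring

theorem norm_unit (D : EuclideanSpace ℝ (Fin 3)) (hD : D ≠ 0) : ‖‖D‖⁻¹ • D‖ = 1 := by
  rw [norm_smul, norm_inv, norm_norm]
  exact inv_mul_cancel₀ (norm_ne_zero_iff.mpr hD)

/-- convex combination of three points -/
theorem mem_hull3 (P Q R : EuclideanSpace ℝ (Fin 3)) (α β : ℝ) (hα : 0 ≤ α) (hβ : 0 ≤ β)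
    (hαβ : α + β ≤ 1) : (1 - α - β) • P + α • Q + β • R ∈ convexHull ℝ {P, Q, R} := by
  have hP : P ∈ convexHull ℝ ({P, Q, R} : Set (EuclideanSpace ℝ (Fin 3))) :=
    subset_convexHull ℝ _ (by simp)
  have hQ : Q ∈ convexHull ℝ ({P, Q, R} : Set (EuclideanSpace ℝ (Fin 3))) :=
    subset_convexHull ℝ _ (by simp)
  have hR : R ∈ convexHull ℝ ({P, Q, R} : Set (EuclideanSpace ℝ (Fin 3))) :=
    subset_convexHull ℝ _ (by simp)
  have h := (convex_convexHull ℝ ({P, Q, R} : Set (EuclideanSpace ℝ (Fin 3)))).sum_mem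
    (t := Finset.univ) (w := ![1 - α - β, α, β]) (z := ![P, Q, R])
    (by intro i _; fin_cases i <;> simp <;> linarith)
    (by simp [Fin.sum_univ_three]; ring)
    (by intro i _; fin_cases i <;> simp [hP, hQ, hR])
  simpa [Fin.sum_univ_three] using h

/-- If `X - a D` lies in the triangle `PQR`, then `X` lies in the cylinder over the projected
triangle with axis `D / ‖D‖`. -/
theorem cyl_mem (D P Q R X : EuclideanSpace ℝ (Fin 3)) (a : ℝ) (hD : D ≠ 0)
    (h : X - a • D ∈ convexHull ℝ {P, Q, R}) :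
    ∃ b ∈ convexHull ℝ {proj (‖D‖⁻¹ • D) P, proj (‖D‖⁻¹ • D) Q, proj (‖D‖⁻¹ • D) R},
      ∃ s : ℝ, X = b + s • (‖D‖⁻¹ • D) := by
  have hu := norm_unit D hD
  set u := ‖D‖⁻¹ • D with hu_def
  have hDu : D = ‖D‖ • u := by
    rw [hu_def, smul_smul, mul_inv_cancel₀ (norm_ne_zero_iff.mpr hD), one_smul]
  have hpD : proj u D = 0 := by
    have h1 := (proj_isLinear u).map_smul ‖D‖ u
    rw [← hDu, proj_self u hu, smul_zero] at h1
    exact h1
  have hpX : proj u X = proj u (X - a • D) := by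
    have h1 := (proj_isLinear u).map_add (X - a • D) (a • D)
    have h2 := (proj_isLinear u).map_smul a D
    rw [sub_add_cancel] at h1
    rw [h1, h2, hpD, smul_zero, add_zero]
  refine ⟨proj u X, ?_, inner ℝ X u, ?_⟩
  · have himg := (proj_isLinear u).image_convexHull ({P, Q, R} : Set (EuclideanSpace ℝ (Fin 3)))
    have hset : proj u '' ({P, Q, R} : Set (EuclideanSpace ℝ (Fin 3))) =
        {proj u P, proj u Q, proj u R} := by
      simp [Set.image_insert_eq]
    rw [hset] at himg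
    rw [← himg, hpX]
    exact Set.mem_image_of_mem _ h
  · rw [proj_def]; abel

end

end Crest.Agent.Helper20
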